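import Vale.Agent.P214.Dim

open MeasureTheory Set Metric Vale.Agent.P214

namespace Vale.Agent.Results.P214.Finite

/-- For a stationary integral varifold with locally finitely many tangent planes the non flat points
of the support have dimension at most `m - 1`; under an angle gap they are null. -/
theorem result (m N : ℕ) (U A : Set (V N)) (θ : V N → ℕ) (μ : Measure (V N))
    (T : V N → Submodule ℝ (V N)) (hU : IsOpen U) (hμ : Weight m U A θ μ)
    (hT : AEStronglyMeasurable (fun x => (T x).starProjection) μ)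
    (tan : ∀ᵐ x ∂μ, Tan m μ x (T x) (θ x)) (st : Stat U μ T) :
    ((∀ x ∈ U, ∃ r > 0, ∃ S : Set (Submodule ℝ (V N)), S.Finite ∧
        ∀ᵐ y ∂μ, y ∈ ball x r → T y ∈ S) →
      dimH {p ∈ U ∩ μ.support | ¬ Flat m U μ p} ≤ (m - 1 : ℕ)) ∧
    (Gap μ T → μHE[m] {p ∈ U ∩ μ.support | ¬ Flat m U μ p} = 0) :=
  ⟨dim_main hU hμ hT tan st, main hU hμ.1 hμ.2.1 hμ.2.2.1 hμ.2.2.2.1 hμ.2.2.2.2 hT tan st⟩

end Vale.Agent.Results.P214.Finite
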