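import Vale.Agent.P214.Main

open MeasureTheory Set Vale.Agent.P214

namespace Vale.Agent.Results.P214.Gap

/-- A stationary integral varifold whose tangent planes have an angle gap, or take finitely many
values, is flat near almost every point of its support. -/
theorem result (m N : ℕ) (U A : Set (V N)) (θ : V N → ℕ) (μ : Measure (V N))
    (T : V N → Submodule ℝ (V N)) (hU : IsOpen U) (hμ : Weight m U A θ μ)
    (hT : AEStronglyMeasurable (fun x => (T x).starProjection) μ)
    (tan : ∀ᵐ x ∂μ, Tan m μ x (T x) (θ x)) (st : Stat U μ T)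
    (gap : Gap μ T ∨ ∃ S : Set (Submodule ℝ (V N)), S.Finite ∧ ∀ᵐ x ∂μ, T x ∈ S) :
    μHE[m] {p ∈ U ∩ μ.support | ¬ Flat m U μ p} = 0 :=
  main hU hμ.1 hμ.2.1 hμ.2.2.1 hμ.2.2.2.1 hμ.2.2.2.2 hT tan st
    (gap.elim id fun ⟨_, h, k⟩ => gap_of h (k.and (tan.mono fun _ l => l.1)))

end Vale.Agent.Results.P214.Gap
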